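import Vale.Agent.Lib.P202.Ext

namespace Vale.Agent.Results.P202.A_main

open IsLocalRing Filter Topology

/-- Let `R → S` be a flat local homomorphism of Noetherian local rings with Artinian closed fibre.
For `d ≥ 2`, if `d! ℓ(R/m^N) / N^d → eR` and `d! ℓ(S/n^N) / N^d → eS` then `eR ≤ (d-1)! eS`;
and `eR ≤ eS` when the closed fibre has embedding dimension at most two. -/
theorem result {R S : Type*} [CommRing R] [CommRing S] [IsLocalRing R] [IsLocalRing S]
    [IsNoetherianRing R] [IsNoetherianRing S] [Algebra R S] [Module.Flat R S]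
    [IsLocalHom (algebraMap R S)]
    (hF : IsArtinianRing (S ⧸ (maximalIdeal R).map (algebraMap R S)))
    (d : ℕ) (hd : 2 ≤ d) (eR eS : ℝ)
    (hR : Tendsto (fun N : ℕ => (d.factorial : ℝ) *
        ((Module.length R (R ⧸ maximalIdeal R ^ N)).toNat : ℝ) / (N : ℝ) ^ d) atTop (𝓝 eR))
    (hS : Tendsto (fun N : ℕ => (d.factorial : ℝ) *
        ((Module.length S (S ⧸ maximalIdeal S ^ N)).toNat : ℝ) / (N : ℝ) ^ d) atTop (𝓝 eS)) :
    eR ≤ ((d - 1).factorial : ℝ) * eS ∧
      ((∃ p q : S, maximalIdeal S = (maximalIdeal R).map (algebraMap R S) ⊔ Ideal.span {p, q}) →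
        eR ≤ eS) := by
  have hfin1 : Vale.Agent.Lib.P202.ilen ((maximalIdeal R).map (algebraMap R S)) ≠ ⊤ := by
    unfold Vale.Agent.Lib.P202.ilen
    rw [Module.length_eq_of_surjective (S := S)
      (R := S ⧸ (maximalIdeal R).map (algebraMap R S)) Ideal.Quotient.mk_surjective
      (M := S ⧸ (maximalIdeal R).map (algebraMap R S))]
    exact Module.length_ne_top
  exact Vale.Agent.Lib.P202.main_final hfin1 d hd hR hS

end Vale.Agent.Results.P202.A_main
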