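import Vale.Agent.Lib.P202.Loewy

namespace Vale.Agent.Results.P202.B_loewy

open IsLocalRing Filter Topology

/-- Let `R → S` be a flat local homomorphism of Noetherian local rings, `d ≥ 2`, with
`d! ℓ(R/m^N) / N^d → eR` and `d! ℓ(S/n^N) / N^d → eS`. Suppose `n^s ⊆ mS` (`s` bounds the Loewy
length of the closed fibre `A = S/mS`), `ℓ(S/(mS + n²)) ≤ r + 1` (`r` bounds the embedding dimension
of `A`) and `b + ℓ(S/(mS + n^(s-1))) ≤ ℓ(S/mS)` (`b` is at most the length of the last Loewy layer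
`n^(s-1) A`). Then `eR ≤ s^(min(r,d)-2) eS` and `b eR ≤ s^(min(r,d)-1) eS`. -/
theorem result {R S : Type*} [CommRing R] [CommRing S] [IsLocalRing R] [IsLocalRing S]
    [IsNoetherianRing R] [IsNoetherianRing S] [Algebra R S] [Module.Flat R S]
    [IsLocalHom (algebraMap R S)]
    (d : ℕ) (hd : 2 ≤ d) (eR eS : ℝ)
    (hR : Tendsto (fun N : ℕ => (d.factorial : ℝ) *
        ((Module.length R (R ⧸ maximalIdeal R ^ N)).toNat : ℝ) / (N : ℝ) ^ d) atTop (𝓝 eR))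
    (hS : Tendsto (fun N : ℕ => (d.factorial : ℝ) *
        ((Module.length S (S ⧸ maximalIdeal S ^ N)).toNat : ℝ) / (N : ℝ) ^ d) atTop (𝓝 eS))
    (s r b : ℕ) (hs : 1 ≤ s)
    (hsn : maximalIdeal S ^ s ≤ (maximalIdeal R).map (algebraMap R S))
    (hr : Module.length S (S ⧸ ((maximalIdeal R).map (algebraMap R S) ⊔ maximalIdeal S ^ 2))
      ≤ ((r + 1 : ℕ) : ℕ∞))
    (hb : (b : ℕ∞) +
        Module.length S (S ⧸ ((maximalIdeal R).map (algebraMap R S) ⊔ maximalIdeal S ^ (s - 1)))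
      ≤ Module.length S (S ⧸ (maximalIdeal R).map (algebraMap R S))) :
    eR ≤ ((s ^ (min r d - 2) : ℕ) : ℝ) * eS ∧
      (b : ℝ) * eR ≤ ((s ^ (min r d - 1) : ℕ) : ℝ) * eS := by
  have hfin1 : Vale.Agent.Lib.P202.ilen ((maximalIdeal R).map (algebraMap R S)) ≠ ⊤ :=
    Vale.Agent.Lib.P202.ilen_ne_top_of_le hsn (Vale.Agent.Lib.P202.ilen_pow_ne_top s)
  exact Vale.Agent.Lib.P202.loewy_final hfin1 d hd hR hS s r b hs hsn hr hb

end Vale.Agent.Results.P202.B_loewy
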